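import Vale.Agent.P078.Red.Final
import Vale.Agent.P078.Exact

/-!
# P078: the so-paving problem splits along the normal central functionals

Let `A` be a MASA of a von Neumann algebra `M` on a nonzero Hilbert space.
1. There is a projection `z ∈ A` such that the normal `A`-central positive functionals of `M`
   separate the projections of `Az` and vanish at `1 - z`; in the corner of `1 - z` everything is
   `(ε, r)` so-pavable as soon as `r ε > 1`; and if all self-adjoint elements of `zMz` are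
   `(ε, r₁)` so-pavable over `Az` and `r₂ ε > 1`, then all self-adjoint elements of `M` are
   `(ε, r₁ + r₂)` so-pavable over `A`.
2. If `M` has no nonzero normal `A`-central positive functional, then
   `⌈1/ε⌉ ≤ n_{A ⊆ M}(ε) ≤ ⌊1/ε⌋ + 1`.
3. If `M = B(H)` and `A` is diffuse then 2 applies and `n_{A ⊆ M}(ε) = ⌈1/ε⌉`.
-/

namespace Vale.Agent.Results.P078.Dichotomy

open Vale.Agent.P078

theorem result {H : Type*} [NormedAddCommGroup H] [InnerProductSpace ℂ H] [CompleteSpace H]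
    [Nontrivial H] (M A : StarSubalgebra ℂ (H →L[ℂ] H)) (hM : IsVN M) (hA : IsMASA M A) :
    (∃ z, z ∈ A ∧ IsStarProjection z ∧
      (∀ e ∈ A, IsStarProjection e → e ≠ 0 → z * e = e →
        ∃ φ : (H →L[ℂ] H) →L[ℂ] ℂ, IsPosFunctional φ ∧ IsCentralOn M A φ ∧ IsNormalOn M φ ∧
          φ e ≠ 0) ∧
      (∀ φ : (H →L[ℂ] H) →L[ℂ] ℂ, IsPosFunctional φ → IsCentralOn M A φ → IsNormalOn M φ →
        φ (1 - z) = 0) ∧
      (∀ (ε : ℝ) (r : ℕ), 1 < r * ε → AllPavableUnder M A (1 - z) ε r) ∧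
      (∀ (ε : ℝ) (r₁ r₂ : ℕ), 1 < r₂ * ε → AllPavableUnder M A z ε r₁ →
        AllPavable M A ε (r₁ + r₂))) ∧
    (NoCentralNormal M A →
      (∀ (ε : ℝ) (r : ℕ), 1 < r * ε → AllPavable M A ε r) ∧
      (∀ (ε : ℝ) (r : ℕ), AllPavable M A ε r → 1 ≤ r * ε) ∧
      (∀ ε : ℝ, 0 < ε → ((⌈1 / ε⌉₊ : ℕ) : ℕ∞) ≤ pavingNumber M A ε ∧
        pavingNumber M A ε ≤ ((⌊1 / ε⌋₊ + 1 : ℕ) : ℕ∞))) ∧
    (M = ⊤ → IsDiffuse A →
      NoCentralNormal M A ∧
      ∀ ε : ℝ, 0 < ε → (∀ r : ℕ, AllPavable M A ε r ↔ 1 ≤ r * ε) ∧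
        pavingNumber M A ε = ((⌈1 / ε⌉₊ : ℕ) : ℕ∞)) := by
  refine ⟨reduction hM hA, ?_, ?_⟩
  · intro hN
    have hT : IsThin M A := thin_of_noCentralNormal hM hA hN
    exact ⟨fun ε r h x hxM hx => hA.soPavable_of_thin hM hT hxM hx h,
      fun ε r h => hA.one_le_of_thin hT h, fun ε hε => hA.pavingNumber_bounds_of_thin hM hT hε⟩
  · intro htop hd
    subst htop
    refine ⟨hA.noCentralNormal_of_diffuse hd, fun ε hε => ⟨fun r => ?_, hA.pavingNumber_eq hd hε⟩⟩
    constructor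
    · intro h
      exact (hA.all_soPavable_iff hd hε r).1 (fun x hx => h x (by trivial) hx)
    · intro h x _ hx
      exact (hA.all_soPavable_iff hd hε r).2 h x hx

end Vale.Agent.Results.P078.Dichotomy
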