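import Vale.Agent.P078.Exact

/-!
# P078: the so-paving number of a diffuse MASA of `B(H)` is exactly `⌈1/ε⌉`

For every nonzero complex Hilbert space `H`, every diffuse maximal abelian self-adjoint
subalgebra `A` of `B(H)` and every `ε > 0`: all self-adjoint operators are `(ε, r)` so-pavable
over `A` if and only if `r ε ≥ 1`; hence `n_{A ⊆ B(H)}(ε) = ⌈1/ε⌉`.
-/

namespace Vale.Agent.Results.P078.DiffuseExact

open Vale.Agent.P078

theorem result {H : Type*} [NormedAddCommGroup H] [InnerProductSpace ℂ H] [CompleteSpace H]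
    [Nontrivial H] (A : StarSubalgebra ℂ (H →L[ℂ] H)) (hA : IsMASA ⊤ A) (hd : IsDiffuse A)
    (ε : ℝ) (hε : 0 < ε) :
    (∀ r : ℕ, (∀ x : H →L[ℂ] H, IsSelfAdjoint x → SoPavable ⊤ A x ε r) ↔ 1 ≤ r * ε) ∧
      pavingNumber ⊤ A ε = ((⌈1 / ε⌉₊ : ℕ) : ℕ∞) :=
  ⟨hA.all_soPavable_iff hd hε, hA.pavingNumber_eq hd hε⟩

end Vale.Agent.Results.P078.DiffuseExact
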