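import Vale.Agent.P078.Red.Final

/-!
# P078: so-paving over MASAs without normal central functionals

Let `M` be a von Neumann algebra on a nonzero Hilbert space and `A` a MASA of `M` such that `M` has
no nonzero normal positive functional `φ` with `φ (a m) = φ (m a)` for `a ∈ A`, `m ∈ M`
(equivalently: no corner `eMe`, `e` a nonzero projection of `A`, has a normal conditional
expectation onto `Ae`).  Then all self-adjoint elements of `M` are `(ε, r)` so-pavable as soon as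
`r ε > 1`, not all of them are if `r ε < 1`, and `⌈1/ε⌉ ≤ n_{A ⊆ M}(ε) ≤ ⌊1/ε⌋ + 1`.
Diffuse MASAs of `B(H)` are examples.
-/

namespace Vale.Agent.Results.P078.NonExpected

open Vale.Agent.P078

theorem result {H : Type*} [NormedAddCommGroup H] [InnerProductSpace ℂ H] [CompleteSpace H]
    [Nontrivial H] :
    (∀ M A : StarSubalgebra ℂ (H →L[ℂ] H), IsVN M → IsMASA M A → NoCentralNormal M A →
      (∀ (ε : ℝ) (r : ℕ), 1 < r * ε → AllPavable M A ε r) ∧
      (∀ (ε : ℝ) (r : ℕ), AllPavable M A ε r → 1 ≤ r * ε) ∧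
      (∀ ε : ℝ, 0 < ε → ((⌈1 / ε⌉₊ : ℕ) : ℕ∞) ≤ pavingNumber M A ε ∧
        pavingNumber M A ε ≤ ((⌊1 / ε⌋₊ + 1 : ℕ) : ℕ∞))) ∧
    (∀ A₀ : StarSubalgebra ℂ (H →L[ℂ] H), IsMASA ⊤ A₀ → IsDiffuse A₀ →
      IsVN (⊤ : StarSubalgebra ℂ (H →L[ℂ] H)) ∧ NoCentralNormal ⊤ A₀) := by
  refine ⟨?_, ?_⟩
  · intro M A hM hA hN
    have hT : IsThin M A := thin_of_noCentralNormal hM hA hN
    exact ⟨fun ε r h x hxM hx => hA.soPavable_of_thin hM hT hxM hx h,
      fun ε r h => hA.one_le_of_thin hT h, fun ε hε => hA.pavingNumber_bounds_of_thin hM hT hε⟩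
  · intro A₀ hA₀ hd
    exact ⟨isVN_top, hA₀.noCentralNormal_of_diffuse hd⟩

end Vale.Agent.Results.P078.NonExpected
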