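import Vale.Agent.P078.Red.Final

/-!
# P078: reduction of the so-paving conjecture to MASAs with normal conditional expectations

For every MASA `A` of a von Neumann algebra `M` there is a projection `z ∈ A` such that
* the normal `A`-central positive functionals of `M` separate the projections of `Az`
  (so `Az` is the range of a normal conditional expectation of `zMz`) and vanish at `1 - z`;
* in the complementary corner everything is `(ε, r)` so-pavable as soon as `r ε > 1`;
* if all self-adjoint elements of `zMz` are `(ε, r₁)` so-pavable over `Az` and `r₂ ε > 1`, then all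
  self-adjoint elements of `M` are `(ε, r₁ + r₂)` so-pavable over `A`.
-/

namespace Vale.Agent.Results.P078.Reduction

open Vale.Agent.P078

theorem result {H : Type*} [NormedAddCommGroup H] [InnerProductSpace ℂ H] [CompleteSpace H]
    (M A : StarSubalgebra ℂ (H →L[ℂ] H)) (hM : IsVN M) (hA : IsMASA M A) :
    ∃ z, z ∈ A ∧ IsStarProjection z ∧
      (∀ e ∈ A, IsStarProjection e → e ≠ 0 → z * e = e →
        ∃ φ : (H →L[ℂ] H) →L[ℂ] ℂ, IsPosFunctional φ ∧ IsCentralOn M A φ ∧ IsNormalOn M φ ∧
          φ e ≠ 0) ∧
      (∀ φ : (H →L[ℂ] H) →L[ℂ] ℂ, IsPosFunctional φ → IsCentralOn M A φ → IsNormalOn M φ →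
        φ (1 - z) = 0) ∧
      (∀ (ε : ℝ) (r : ℕ), 1 < r * ε → AllPavableUnder M A (1 - z) ε r) ∧
      (∀ (ε : ℝ) (r₁ r₂ : ℕ), 1 < r₂ * ε → AllPavableUnder M A z ε r₁ →
        AllPavable M A ε (r₁ + r₂)) :=
  reduction hM hA

end Vale.Agent.Results.P078.Reduction
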